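import Vale.Agent.P088.R2.H475.INF.Step

/-!
# P088, zone INF: the one-variable functions of the global level

`pp σ θ` is the ratio of the gradient of the level and of the radial vector, `θ = σ² |y - y_c|²`;
`pp = 1` for `θ ≥ th1 σ = (1 - 2.3 σ)²`, `pp = pin` (conical) for `θ ≤ th0 σ = (1 - 2.4 σ)²`;
`Ga σ` is the primitive of `pp / 2` with `Ga σ 1 = 0`.
-/

open Set Filter MeasureTheory
open scoped ContDiff Topology

noncomputable section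

namespace Vale.Agent.P088.R2.H475

/-- `√(10001 / (10000 θ + 1))`. -/
def hh (θ : ℝ) : ℝ := √10001 * (√(10000 * θ + 1))⁻¹

/-- The beginning of the step. -/
def th0 (σ : ℝ) : ℝ := (1 - 12 / 5 * σ) ^ 2

/-- The end of the step. -/
def th1 (σ : ℝ) : ℝ := (1 - 23 / 10 * σ) ^ 2

/-- The step. -/
def ch (σ θ : ℝ) : ℝ := Real.smoothTransition ((θ - th0 σ) / (th1 σ - th0 σ))

/-- The conical part. -/
def pin (σ θ : ℝ) : ℝ := (97 / 100 - 6 * σ) * hh θ + 3 / 100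

/-- The difference. -/
def kd (σ θ : ℝ) : ℝ := ch σ θ * (1 - pin σ θ)

/-- The profile of the gradient. -/
def pp (σ θ : ℝ) : ℝ := pin σ θ + kd σ θ

/-- Its primitive. -/
def Ga (σ θ : ℝ) : ℝ :=
  (1 / 2) * ((97 / 100 - 6 * σ) * (√10001 * (√(10000 * θ + 1) - √10001) / 5000) +
    3 / 100 * (θ - 1) + ∫ t in (1 : ℝ)..θ, kd σ t)

lemma pp_eq (σ θ : ℝ) : pp σ θ = (1 - ch σ θ) * pin σ θ + ch σ θ := by
  unfold pp kd; ring

/-! ### `hh` -/

section hh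

variable {θ : ℝ}

lemma hh_pos (h : 0 < 10000 * θ + 1) : 0 < hh θ := by
  unfold hh
  have : 0 < √(10000 * θ + 1) := Real.sqrt_pos.2 h
  positivity

lemma hh_one : hh 1 = 1 := by
  unfold hh
  norm_num

lemma hh_sq (h : 0 < 10000 * θ + 1) : hh θ ^ 2 * (10000 * θ + 1) = 10001 := by
  unfold hh
  have h1 : √(10000 * θ + 1) ≠ 0 := (Real.sqrt_pos.2 h).ne'
  have h2 : √(10000 * θ + 1) ^ 2 = 10000 * θ + 1 := Real.sq_sqrt h.le
  have h3 : √(10001 : ℝ) ^ 2 = 10001 := Real.sq_sqrt (by norm_num)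
  rw [mul_pow, h3, inv_pow, h2]
  field_simp

lemma one_le_hh (h0 : 0 ≤ θ) (h1 : θ ≤ 1) : 1 ≤ hh θ := by
  have h := hh_sq (θ := θ) (by linarith)
  have hp := hh_pos (θ := θ) (by linarith)
  by_contra hc
  have hc' : hh θ < 1 := not_le.1 hc
  have h2 : hh θ ^ 2 < 1 := by nlinarith
  nlinarith

lemma hh_le (h0 : 0 ≤ θ) : hh θ ≤ 501 / 5 := by
  have h := hh_sq (θ := θ) (by linarith)
  have hp := hh_pos (θ := θ) (by linarith)
  by_contra hc
  have hc' : 501 / 5 < hh θ := not_le.1 hc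
  have h2 : (501 / 5) ^ 2 < hh θ ^ 2 := by nlinarith
  have h3 : hh θ ^ 2 ≤ 10001 := by nlinarith [mul_nonneg (sq_nonneg (hh θ)) h0]
  norm_num at h2
  linarith

/-- `t hh (t²) ≤ 1` for `t ≤ 1`. -/
lemma t_hh_le {t : ℝ} (h0 : 0 ≤ t) (h1 : t ≤ 1) : t * hh (t ^ 2) ≤ 1 := by
  have h := hh_sq (θ := t ^ 2) (by positivity)
  have hp := hh_pos (θ := t ^ 2) (by positivity)
  by_contra hc
  have hc' : 1 < t * hh (t ^ 2) := not_le.1 hc
  have h2 : 1 < (t * hh (t ^ 2)) ^ 2 := by nlinarith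
  have h3 : t ^ 2 ≤ 1 := by nlinarith
  have h4 : (t * hh (t ^ 2)) ^ 2 * (10000 * t ^ 2 + 1) = 10001 * t ^ 2 := by
    rw [mul_pow]
    linear_combination (t ^ 2) * h
  nlinarith [sq_nonneg t]

/-- `t hh (t²) ≥ 99/100` for `t ≥ 2/25`. -/
lemma t_hh_ge {t : ℝ} (h0 : 2 / 25 ≤ t) : 99 / 100 ≤ t * hh (t ^ 2) := by
  have h := hh_sq (θ := t ^ 2) (by positivity)
  have hp := hh_pos (θ := t ^ 2) (by positivity)
  by_contra hc
  have hc' : t * hh (t ^ 2) < 99 / 100 := not_le.1 hc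
  have ht : 0 < t := by linarith
  have h1 : 0 < t * hh (t ^ 2) := mul_pos ht hp
  have h2 : (t * hh (t ^ 2)) ^ 2 < (99 / 100) ^ 2 := by nlinarith
  have h3 : 4 / 625 ≤ t ^ 2 := by nlinarith
  have h4 : (t * hh (t ^ 2)) ^ 2 * (10000 * t ^ 2 + 1) = 10001 * t ^ 2 := by
    rw [mul_pow]
    linear_combination (t ^ 2) * h
  have h5 : (t * hh (t ^ 2)) ^ 2 * (10000 * t ^ 2 + 1) < (99 / 100) ^ 2 * (10000 * t ^ 2 + 1) :=
    mul_lt_mul_of_pos_right h2 (by positivity)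
  nlinarith

lemma hasDerivAt_hh (h : 0 < 10000 * θ + 1) :
    HasDerivAt hh (-(5000 * hh θ / (10000 * θ + 1))) θ := by
  have h1 : HasDerivAt (fun θ : ℝ => 10000 * θ + 1) 10000 θ := by
    simpa using ((hasDerivAt_id θ).const_mul 10000).add_const 1
  have h2 := ((h1.sqrt h.ne').inv (Real.sqrt_pos.2 h).ne').const_mul (√10001)
  have e : √10001 * (-(10000 / (2 * √(10000 * θ + 1))) / √(10000 * θ + 1) ^ 2) =
      -(5000 * hh θ / (10000 * θ + 1)) := by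
    unfold hh
    have h3 : √(10000 * θ + 1) ≠ 0 := (Real.sqrt_pos.2 h).ne'
    rw [Real.sq_sqrt h.le]
    field_simp
    ring
  rw [← e]
  exact h2

lemma contDiffAt_hh (h : 0 < 10000 * θ + 1) : ContDiffAt ℝ ∞ hh θ := by
  have h1 : ContDiffAt ℝ ∞ (fun θ : ℝ => 10000 * θ + 1) θ := by fun_prop
  exact contDiffAt_const.mul ((h1.sqrt h.ne').inv (Real.sqrt_pos.2 h).ne')

end hh

/-! ### The step -/

section step

variable {σ θ : ℝ}

lemma th_diff (σ : ℝ) : th1 σ - th0 σ = σ * (1 / 5 - 47 / 100 * σ) := by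
  unfold th1 th0; ring

lemma th_lt (h0 : 0 < σ) (h1 : σ ≤ 1 / 5000) : 199 / 1000 * σ ≤ th1 σ - th0 σ := by
  rw [th_diff]
  nlinarith

lemma th0_lt (h0 : 0 < σ) (h1 : σ ≤ 1 / 5000) : th0 σ < th1 σ := by
  have := th_lt h0 h1
  nlinarith

lemma th1_lt (h0 : 0 < σ) (h1 : σ ≤ 1 / 5000) : th1 σ < 1 := by
  unfold th1; nlinarith

lemma th0_gt (h0 : 0 < σ) (h1 : σ ≤ 1 / 5000) : 99 / 100 < th0 σ := by
  unfold th0; nlinarith

lemma ch_nonneg : 0 ≤ ch σ θ := Real.smoothTransition.nonneg _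

lemma ch_le_one : ch σ θ ≤ 1 := Real.smoothTransition.le_one _

lemma ch_zero (h0 : 0 < σ) (h1 : σ ≤ 1 / 5000) (h : θ ≤ th0 σ) : ch σ θ = 0 := by
  refine Real.smoothTransition.zero_of_nonpos (div_nonpos_of_nonpos_of_nonneg ?_ ?_)
  · linarith
  · have := th0_lt h0 h1
    linarith

lemma ch_one (h0 : 0 < σ) (h1 : σ ≤ 1 / 5000) (h : th1 σ ≤ θ) : ch σ θ = 1 := by
  have h2 := th0_lt h0 h1
  refine Real.smoothTransition.one_of_one_le ?_
  rw [le_div_iff₀ (by linarith)]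
  linarith

lemma contDiff_ch (σ : ℝ) : ContDiff ℝ ∞ (ch σ) := by
  have h1 : ContDiff ℝ ∞ fun θ : ℝ => (θ - th0 σ) / (th1 σ - th0 σ) :=
    (contDiff_id.sub contDiff_const).div_const _
  exact (Real.smoothTransition.contDiff (n := (⊤ : ℕ∞))).comp h1

/-- The derivative of the step. -/
def ch' (σ θ : ℝ) : ℝ :=
  deriv Real.smoothTransition ((θ - th0 σ) / (th1 σ - th0 σ)) * (th1 σ - th0 σ)⁻¹

lemma hasDerivAt_ch (σ θ : ℝ) : HasDerivAt (ch σ) (ch' σ θ) θ := by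
  have h1 : HasDerivAt (fun θ : ℝ => (θ - th0 σ) / (th1 σ - th0 σ)) (th1 σ - th0 σ)⁻¹ θ := by
    simpa using ((hasDerivAt_id θ).sub_const (th0 σ)).div_const (th1 σ - th0 σ)
  have h2 : DifferentiableAt ℝ Real.smoothTransition ((θ - th0 σ) / (th1 σ - th0 σ)) :=
    ((Real.smoothTransition.contDiff (n := 1)).differentiable (by norm_num)) _
  exact h2.hasDerivAt.comp θ h1

lemma ch'_nonneg (h0 : 0 < σ) (h1 : σ ≤ 1 / 5000) : 0 ≤ ch' σ θ := by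
  have h2 := th0_lt h0 h1
  exact mul_nonneg (deriv_st _).1 (inv_nonneg.2 (by linarith))

lemma ch'_le (h0 : 0 < σ) (h1 : σ ≤ 1 / 5000) : ch' σ θ * σ ≤ 26 := by
  have h2 := th_lt h0 h1
  have h3 : 0 < th1 σ - th0 σ := by nlinarith
  have h4 : (th1 σ - th0 σ)⁻¹ * σ ≤ 1000 / 199 := by
    rw [inv_mul_le_iff₀ h3]
    linarith
  have h5 := (deriv_st ((θ - th0 σ) / (th1 σ - th0 σ)))
  unfold ch'
  calc deriv Real.smoothTransition ((θ - th0 σ) / (th1 σ - th0 σ)) * (th1 σ - th0 σ)⁻¹ * σ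
      = deriv Real.smoothTransition ((θ - th0 σ) / (th1 σ - th0 σ)) * ((th1 σ - th0 σ)⁻¹ * σ) := by
        ring
    _ ≤ 5 * (1000 / 199) :=
        mul_le_mul h5.2 h4 (mul_nonneg (inv_nonneg.2 h3.le) h0.le) (by norm_num)
    _ ≤ 26 := by norm_num

lemma ch'_zero (h0 : 0 < σ) (h1 : σ ≤ 1 / 5000) (h : θ ≤ th0 σ ∨ th1 σ ≤ θ) : ch' σ θ = 0 := by
  rcases h with h | h
  · have : IsLocalMin (ch σ) θ := Eventually.of_forall fun y => by
      rw [ch_zero h0 h1 h]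
      exact ch_nonneg
    exact this.hasDerivAt_eq_zero (hasDerivAt_ch σ θ)
  · have : IsLocalMax (ch σ) θ := Eventually.of_forall fun y => by
      rw [ch_one h0 h1 h]
      exact ch_le_one
    exact this.hasDerivAt_eq_zero (hasDerivAt_ch σ θ)

end step

/-! ### `pin` -/

section pin

variable {σ θ : ℝ}

/-- `1 - pin ≤ 6 σ` for `θ ≤ 1`. -/
lemma pin_ge (h1 : σ ≤ 1 / 5000) (h2 : 0 ≤ θ) (h3 : θ ≤ 1) : 1 - 6 * σ ≤ pin σ θ := by
  have := one_le_hh h2 h3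
  unfold pin
  nlinarith

lemma pin_pos (h1 : σ ≤ 1 / 5000) (h2 : 0 ≤ θ) : 3 / 100 < pin σ θ := by
  have := hh_pos (θ := θ) (by linarith)
  unfold pin
  nlinarith

lemma pin_le (h0 : 0 < σ) (h1 : σ ≤ 1 / 5000) (h2 : 0 ≤ θ) : pin σ θ ≤ 98 := by
  have h3 := hh_le h2
  have h4 := hh_pos (θ := θ) (by linarith)
  unfold pin
  nlinarith

/-- `pin ≤ 1` for `θ ≥ th0`. -/
lemma pin_le_one (h0 : 0 < σ) (h1 : σ ≤ 1 / 5000) (h2 : th0 σ ≤ θ) : pin σ θ ≤ 1 := by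
  have h3 := th0_gt h0 h1
  have h4 := hh_sq (θ := θ) (by linarith)
  have h5 := hh_pos (θ := θ) (by linarith)
  -- `hh θ (1 - 12/5 σ) ≤ 1` if `θ ≤ 1`
  have h6 : hh θ * (1 - 12 / 5 * σ) ≤ 1 := by
    by_contra hc
    have hc' : 1 < hh θ * (1 - 12 / 5 * σ) := not_le.1 hc
    have h7 : 1 < (hh θ * (1 - 12 / 5 * σ)) ^ 2 := by nlinarith
    have h8 : (hh θ * (1 - 12 / 5 * σ)) ^ 2 = hh θ ^ 2 * th0 σ := by unfold th0; ring
    rw [h8] at h7
    have h9 := th0_lt h0 h1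
    have h10 := th1_lt h0 h1
    have h11 : hh θ ^ 2 * (10000 * th0 σ + 1) ≤ 10001 := by
      rw [← h4]
      exact mul_le_mul_of_nonneg_left (by linarith) (sq_nonneg _)
    nlinarith [sq_nonneg (hh θ)]
  unfold pin
  nlinarith

lemma hasDerivAt_pin (h : 0 < 10000 * θ + 1) :
    HasDerivAt (pin σ) ((97 / 100 - 6 * σ) * -(5000 * hh θ / (10000 * θ + 1))) θ :=
  ((hasDerivAt_hh h).const_mul _).add_const _

lemma contDiffAt_pin (h : 0 < 10000 * θ + 1) : ContDiffAt ℝ ∞ (pin σ) θ :=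
  (contDiffAt_const.mul (contDiffAt_hh h)).add contDiffAt_const

lemma contDiff_kd (h0 : 0 < σ) (h1 : σ ≤ 1 / 5000) : ContDiff ℝ ∞ (kd σ) := by
  rw [contDiff_iff_contDiffAt]
  intro θ
  rcases lt_or_ge θ (th0 σ) with h | h
  · have e : kd σ =ᶠ[𝓝 θ] fun _ => (0 : ℝ) := by
      filter_upwards [gt_mem_nhds h] with t ht
      simp [kd, ch_zero h0 h1 ht.le]
    exact contDiffAt_const.congr_of_eventuallyEq e
  · have h2 := th0_gt h0 h1
    exact ((contDiff_ch σ).contDiffAt).mul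
      (contDiffAt_const.sub (contDiffAt_pin (by linarith)))

lemma kd_nonneg (h0 : 0 < σ) (h1 : σ ≤ 1 / 5000) (θ : ℝ) : 0 ≤ kd σ θ := by
  rcases le_or_gt θ (th0 σ) with h | h
  · simp [kd, ch_zero h0 h1 h]
  · have := pin_le_one h0 h1 h.le
    exact mul_nonneg ch_nonneg (by linarith)

end pin

/-! ### `pp` -/

section pp

variable {σ θ : ℝ}

lemma pp_one (h0 : 0 < σ) (h1 : σ ≤ 1 / 5000) (h : th1 σ ≤ θ) : pp σ θ = 1 := by
  rw [pp_eq, ch_one h0 h1 h]; ring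

lemma pp_in (h0 : 0 < σ) (h1 : σ ≤ 1 / 5000) (h : θ ≤ th0 σ) : pp σ θ = pin σ θ := by
  rw [pp_eq, ch_zero h0 h1 h]; ring

/-- **`pp ≥ 1 - 6 σ`.** -/
theorem pp_ge (h0 : 0 < σ) (h1 : σ ≤ 1 / 5000) (h2 : 0 ≤ θ) : 1 - 6 * σ ≤ pp σ θ := by
  rcases le_or_gt (th1 σ) θ with h | h
  · rw [pp_one h0 h1 h]; linarith
  · have h3 := pin_ge h1 h2 (h.le.trans (th1_lt h0 h1).le)
    have h4 := ch_nonneg (σ := σ) (θ := θ)
    have h5 := ch_le_one (σ := σ) (θ := θ)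
    rw [pp_eq]
    nlinarith

theorem pp_pos (h0 : 0 < σ) (h1 : σ ≤ 1 / 5000) (h2 : 0 ≤ θ) : 99 / 100 ≤ pp σ θ := by
  have := pp_ge h0 h1 h2
  linarith

theorem pp_le (h0 : 0 < σ) (h1 : σ ≤ 1 / 5000) (h2 : 0 ≤ θ) : pp σ θ ≤ 98 := by
  have h3 := pin_le h0 h1 h2
  have h4 := ch_nonneg (σ := σ) (θ := θ)
  have h5 := ch_le_one (σ := σ) (θ := θ)
  rw [pp_eq]
  nlinarith

/-- The derivative of `pp`. -/
def pp' (σ θ : ℝ) : ℝ :=
  (1 - ch σ θ) * ((97 / 100 - 6 * σ) * -(5000 * hh θ / (10000 * θ + 1))) +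
    ch' σ θ * (1 - pin σ θ)

theorem hasDerivAt_pp (h : 0 < 10000 * θ + 1) : HasDerivAt (pp σ) (pp' σ θ) θ := by
  have h1 := hasDerivAt_pin (σ := σ) h
  have h2 := h1.add ((hasDerivAt_ch σ θ).mul (h1.const_sub 1))
  have e : (97 / 100 - 6 * σ) * -(5000 * hh θ / (10000 * θ + 1)) +
      (ch' σ θ * (1 - pin σ θ) +
        ch σ θ * -((97 / 100 - 6 * σ) * -(5000 * hh θ / (10000 * θ + 1)))) = pp' σ θ := by
    unfold pp'; ring
  rw [← e]
  exact h2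

theorem contDiffAt_pp (h0 : 0 < σ) (h1 : σ ≤ 1 / 5000) (h : 0 < 10000 * θ + 1) :
    ContDiffAt ℝ ∞ (pp σ) θ :=
  (contDiffAt_pin h).add (contDiff_kd h0 h1).contDiffAt

/-- **The lower bound of the radial second derivative.** -/
theorem pp'_ge (h0 : 0 < σ) (h1 : σ ≤ 1 / 5000) (h2 : 0 ≤ θ) :
    3 / 100 ≤ pp σ θ + 2 * θ * pp' σ θ := by
  have hc0 := ch_nonneg (σ := σ) (θ := θ)
  have hc1 := ch_le_one (σ := σ) (θ := θ)
  have hp := hh_pos (θ := θ) (by linarith)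
  have e1 : 2 * θ * (5000 * hh θ / (10000 * θ + 1)) ≤ hh θ := by
    rw [← mul_div_assoc, div_le_iff₀ (by linarith)]
    nlinarith
  have e2 : 0 ≤ ch' σ θ * (1 - pin σ θ) := by
    rcases le_or_gt θ (th0 σ) with h | h
    · rw [ch'_zero h0 h1 (Or.inl h)]; simp
    · exact mul_nonneg (ch'_nonneg h0 h1) (by linarith [pin_le_one h0 h1 h.le])
  have e3 : 0 ≤ 2 * θ * (ch' σ θ * (1 - pin σ θ)) := mul_nonneg (by linarith) e2
  have e4 : (1 - ch σ θ) * ((97 / 100 - 6 * σ) * (2 * θ * (5000 * hh θ / (10000 * θ + 1)))) ≤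
      (1 - ch σ θ) * ((97 / 100 - 6 * σ) * hh θ) :=
    mul_le_mul_of_nonneg_left (mul_le_mul_of_nonneg_left e1 (by linarith)) (by linarith)
  have e5 : pp σ θ + 2 * θ * pp' σ θ = (1 - ch σ θ) * ((97 / 100 - 6 * σ) * hh θ) -
      (1 - ch σ θ) * ((97 / 100 - 6 * σ) * (2 * θ * (5000 * hh θ / (10000 * θ + 1)))) +
      (1 - ch σ θ) * (3 / 100) + ch σ θ + 2 * θ * (ch' σ θ * (1 - pin σ θ)) := by
    rw [pp_eq]; unfold pp' pin; ring
  rw [e5]
  nlinarith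

/-- **The upper bound of the radial second derivative.** -/
theorem pp'_le (h0 : 0 < σ) (h1 : σ ≤ 1 / 5000) (h2 : 0 ≤ θ) :
    pp σ θ + 2 * θ * pp' σ θ ≤ 410 := by
  have hc0 := ch_nonneg (σ := σ) (θ := θ)
  have hc1 := ch_le_one (σ := σ) (θ := θ)
  have hp := hh_pos (θ := θ) (by linarith)
  have e1 : 0 ≤ 5000 * hh θ / (10000 * θ + 1) := by positivity
  have e2 : 0 ≤ (1 - ch σ θ) * ((97 / 100 - 6 * σ) * (5000 * hh θ / (10000 * θ + 1))) :=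
    mul_nonneg (by linarith) (mul_nonneg (by linarith) e1)
  have e3 : θ * (ch' σ θ * (1 - pin σ θ)) ≤ 156 := by
    rcases le_or_gt (th1 σ) θ with h | h
    · rw [ch'_zero h0 h1 (Or.inr h)]; simp
    · have h3 : θ ≤ 1 := h.le.trans (th1_lt h0 h1).le
      have h4 := pin_ge h1 h2 h3
      have h5 := ch'_nonneg (θ := θ) h0 h1
      have h6 := ch'_le (θ := θ) h0 h1
      have h7 : ch' σ θ * (1 - pin σ θ) ≤ 156 := by
        have : ch' σ θ * (1 - pin σ θ) ≤ ch' σ θ * (6 * σ) :=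
          mul_le_mul_of_nonneg_left (by linarith) h5
        nlinarith
      rcases le_total 0 (ch' σ θ * (1 - pin σ θ)) with h8 | h8
      · nlinarith
      · nlinarith
  have e4 := pp_le h0 h1 h2
  have e5 : 2 * θ * pp' σ θ =
      -(2 * θ * ((1 - ch σ θ) * ((97 / 100 - 6 * σ) * (5000 * hh θ / (10000 * θ + 1))))) +
      2 * (θ * (ch' σ θ * (1 - pin σ θ))) := by
    unfold pp'; ring
  have e6 : 0 ≤ 2 * θ * ((1 - ch σ θ) * ((97 / 100 - 6 * σ) * (5000 * hh θ / (10000 * θ + 1)))) :=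
    mul_nonneg (by linarith) e2
  rw [e5]
  linarith

/-- `t pp (t²) ≥ 96/100` for `t ≥ 2/25`. -/
theorem t_pp_ge (h0 : 0 < σ) (h1 : σ ≤ 1 / 5000) {t : ℝ} (ht : 2 / 25 ≤ t) :
    24 / 25 ≤ t * pp σ (t ^ 2) := by
  have h2 := t_hh_ge ht
  have hc0 := ch_nonneg (σ := σ) (θ := t ^ 2)
  have hc1 := ch_le_one (σ := σ) (θ := t ^ 2)
  have h3 : 24 / 25 ≤ t * pin σ (t ^ 2) := by
    unfold pin
    nlinarith
  rcases le_or_gt (t ^ 2) (th0 σ) with h | h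
  · rw [pp_in h0 h1 h]; exact h3
  · have h4 := th0_gt h0 h1
    have h5 : 24 / 25 ≤ t := by
      by_contra hc
      have : t < 24 / 25 := not_le.1 hc
      nlinarith
    rw [pp_eq]
    nlinarith

/-- `t pp (t²) ≤ max 1 t`. -/
theorem t_pp_le (h0 : 0 < σ) (h1 : σ ≤ 1 / 5000) {t : ℝ} (ht : 0 ≤ t) :
    t * pp σ (t ^ 2) ≤ max 1 t := by
  rcases le_or_gt 1 t with h | h
  · have h2 := th1_lt h0 h1
    rw [pp_one h0 h1 (by nlinarith), mul_one]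
    exact le_max_right _ _
  · refine le_trans ?_ (le_max_left _ _)
    have h2 := t_hh_le ht h.le
    have hc0 := ch_nonneg (σ := σ) (θ := t ^ 2)
    have hc1 := ch_le_one (σ := σ) (θ := t ^ 2)
    have h3 : t * pin σ (t ^ 2) ≤ 1 := by
      unfold pin
      nlinarith
    rw [pp_eq]
    nlinarith

end pp

end Vale.Agent.P088.R2.H475
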