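import Vale.Agent.P088.R2.H475.INF.Gam

/-!
# P088, zone INF: the primitive `Ga`

`Ga' = pp / 2`, `Ga σ θ = (θ - 1) / 2` for `θ ≥ th1 σ`, `Ga ≤ -9/10` for `θ ≤ (2/25)²`,
`Ga ≥ -98/100`.
-/

open Set Filter MeasureTheory
open scoped ContDiff Topology

noncomputable section

namespace Vale.Agent.P088.R2.H475

variable {σ θ : ℝ}

lemma contDiff_prim {f g : ℝ → ℝ} (h : ∀ x, HasDerivAt f (g x) x) (hg : ContDiff ℝ ∞ g) :
    ContDiff ℝ ∞ f := by
  rw [contDiff_infty_iff_deriv]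
  refine ⟨fun x => (h x).differentiableAt, ?_⟩
  have : deriv f = g := funext fun x => (h x).deriv
  rw [this]
  exact hg

lemma hasDerivAt_int (h0 : 0 < σ) (h1 : σ ≤ 1 / 5000) (θ : ℝ) :
    HasDerivAt (fun θ => ∫ t in (1 : ℝ)..θ, kd σ t) (kd σ θ) θ := by
  have hc : Continuous (kd σ) := (contDiff_kd h0 h1).continuous
  exact intervalIntegral.integral_hasDerivAt_right (hc.intervalIntegrable _ _)
    (hc.stronglyMeasurableAtFilter _ _) hc.continuousAt

theorem hasDerivAt_Ga (h0 : 0 < σ) (h1 : σ ≤ 1 / 5000) (h : 0 < 10000 * θ + 1) :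
    HasDerivAt (Ga σ) (pp σ θ / 2) θ := by
  have h2 : HasDerivAt (fun θ : ℝ => 10000 * θ + 1) 10000 θ := by
    simpa using ((hasDerivAt_id θ).const_mul 10000).add_const 1
  have h3 := ((((h2.sqrt h.ne').sub_const (√10001)).const_mul (√10001)).div_const 5000).const_mul
    (97 / 100 - 6 * σ)
  have h4 : HasDerivAt (fun θ : ℝ => 3 / 100 * (θ - 1)) (3 / 100) θ := by
    simpa using ((hasDerivAt_id θ).sub_const 1).const_mul (3 / 100)
  have h5 := ((h3.add h4).add (hasDerivAt_int h0 h1 θ)).const_mul (1 / 2)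
  have e : 1 / 2 * ((97 / 100 - 6 * σ) * (√10001 * (10000 / (2 * √(10000 * θ + 1))) / 5000) +
      3 / 100 + kd σ θ) = pp σ θ / 2 := by
    unfold pp pin hh
    have h6 : √(10000 * θ + 1) ≠ 0 := (Real.sqrt_pos.2 h).ne'
    field_simp
    ring
  rw [← e]
  exact h5

theorem contDiffAt_Ga (h0 : 0 < σ) (h1 : σ ≤ 1 / 5000) (h : 0 < 10000 * θ + 1) :
    ContDiffAt ℝ ∞ (Ga σ) θ := by
  have h2 : ContDiffAt ℝ ∞ (fun θ : ℝ => 10000 * θ + 1) θ := by fun_prop
  have h3 : ContDiff ℝ ∞ fun θ => ∫ t in (1 : ℝ)..θ, kd σ t :=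
    contDiff_prim (hasDerivAt_int h0 h1) (contDiff_kd h0 h1)
  refine contDiffAt_const.mul (((contDiffAt_const.mul ((contDiffAt_const.mul
    ((h2.sqrt h.ne').sub contDiffAt_const)).div_const _)).add
    (contDiffAt_const.mul (contDiffAt_id.sub contDiffAt_const))).add h3.contDiffAt)

theorem Ga_one (σ : ℝ) : Ga σ 1 = 0 := by
  unfold Ga
  norm_num

theorem Ga_lit (h0 : 0 < σ) (h1 : σ ≤ 1 / 5000) (h : th1 σ ≤ θ) : Ga σ θ = (θ - 1) / 2 := by
  have ht := th0_gt h0 h1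
  have ht' := th0_lt h0 h1
  have hd : ∀ x ∈ Ici (th1 σ), HasDerivAt (fun x => Ga σ x - (x - 1) / 2) 0 x := by
    intro x hx
    have hx' : th1 σ ≤ x := hx
    have h2 := hasDerivAt_Ga (θ := x) h0 h1 (by linarith)
    rw [pp_one h0 h1 hx] at h2
    have h3 : HasDerivAt (fun x : ℝ => (x - 1) / 2) (1 / 2) x :=
      ((hasDerivAt_id x).sub_const 1).div_const 2
    have h4 := h2.sub h3
    rw [sub_self] at h4
    exact h4
  have hc : ∀ a b, th1 σ ≤ a → a ≤ b → Ga σ b - (b - 1) / 2 = Ga σ a - (a - 1) / 2 := by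
    intro a b ha hab
    refine constant_of_has_deriv_right_zero (f := fun x => Ga σ x - (x - 1) / 2) (a := a) (b := b)
      (fun x hx => (hd x (ha.trans hx.1)).continuousAt.continuousWithinAt)
      (fun x hx => (hd x (ha.trans hx.1)).hasDerivWithinAt) b ⟨hab, le_rfl⟩
  have h3 := th1_lt h0 h1
  rcases le_total θ 1 with h4 | h4
  · have := hc θ 1 h h4
    rw [Ga_one] at this
    linarith
  · have := hc 1 θ h3.le h4
    rw [Ga_one] at this
    linarith

theorem Ga_mono (h0 : 0 < σ) (h1 : σ ≤ 1 / 5000) : StrictMonoOn (Ga σ) (Ici 0) := by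
  refine strictMonoOn_of_deriv_pos (convex_Ici 0) ?_ ?_
  · intro x hx
    have hx' : (0 : ℝ) ≤ x := hx
    exact (hasDerivAt_Ga h0 h1 (by linarith)).continuousAt.continuousWithinAt
  · intro x hx
    rw [interior_Ici] at hx
    have hx' : (0 : ℝ) < x := hx
    rw [(hasDerivAt_Ga h0 h1 (by linarith)).deriv]
    have := pp_pos h0 h1 hx'.le
    linarith

lemma int_kd_nonneg (h0 : 0 < σ) (h1 : σ ≤ 1 / 5000) (h : θ ≤ 1) :
    ∫ t in (1 : ℝ)..θ, kd σ t ≤ 0 := by
  rw [intervalIntegral.integral_symm]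
  have : 0 ≤ ∫ t in θ..1, kd σ t :=
    intervalIntegral.integral_nonneg h fun t _ => kd_nonneg h0 h1 t
  linarith

lemma int_kd_ge (h0 : 0 < σ) (h1 : σ ≤ 1 / 5000) : -(1 / 500) ≤ ∫ t in (1 : ℝ)..0, kd σ t := by
  rw [intervalIntegral.integral_symm]
  have hc : Continuous (kd σ) := (contDiff_kd h0 h1).continuous
  have h2 : ∫ t in (0 : ℝ)..1, kd σ t ≤ ∫ t in (0 : ℝ)..1, (6 * σ) := by
    refine intervalIntegral.integral_mono_on zero_le_one (hc.intervalIntegrable _ _)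
      (continuous_const.intervalIntegrable _ _) fun t ht => ?_
    have h3 := pin_ge h1 ht.1 ht.2
    have h4 := ch_nonneg (σ := σ) (θ := t)
    have h5 := ch_le_one (σ := σ) (θ := t)
    unfold kd
    rcases le_total 0 (1 - pin σ t) with h6 | h6
    · nlinarith
    · nlinarith
  have h7 : ∫ t in (0 : ℝ)..1, (6 * σ) = 6 * σ := by simp
  rw [h7] at h2
  linarith [h2]

/-- The depth. -/
theorem Ga_deep (h0 : 0 < σ) (h1 : σ ≤ 1 / 5000) (h3 : θ ≤ 4 / 625) :
    Ga σ θ ≤ -(9 / 10) := by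
  have h4 := int_kd_nonneg h0 h1 (θ := θ) (by linarith)
  have h5 : √(10000 * θ + 1) ≤ 807 / 100 := by
    rw [Real.sqrt_le_left (by norm_num)]
    norm_num
    linarith
  have h6 : √10001 ^ 2 = (10001 : ℝ) := Real.sq_sqrt (by norm_num)
  have h7 : √(10001 : ℝ) ≤ 10001 / 100 := by
    rw [Real.sqrt_le_left (by norm_num)]
    norm_num
  have h8 : 0 ≤ √(10001 : ℝ) := Real.sqrt_nonneg _
  have h9 : √10001 * √(10000 * θ + 1) ≤ 10001 / 100 * (807 / 100) :=
    mul_le_mul h7 h5 (Real.sqrt_nonneg _) (by norm_num)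
  have h10 : √10001 * (√(10000 * θ + 1) - √10001) ≤ -(91938 / 10) := by
    nlinarith
  have h11 : (97 / 100 - 6 * σ) * (√10001 * (√(10000 * θ + 1) - √10001) / 5000) ≤
      (97 / 100 - 6 * (1 / 5000)) * (-(91938 / 10) / 5000) := by
    have h12 : (97 / 100 - 6 * σ) * (√10001 * (√(10000 * θ + 1) - √10001) / 5000) ≤
        (97 / 100 - 6 * σ) * (-(91938 / 10) / 5000) :=
      mul_le_mul_of_nonneg_left (by linarith) (by linarith)
    nlinarith
  unfold Ga
  norm_num at h11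
  linarith

theorem Ga_bot (h0 : 0 < σ) (h1 : σ ≤ 1 / 5000) (h2 : 0 ≤ θ) : -(49 / 50) ≤ Ga σ θ := by
  have hm : Ga σ 0 ≤ Ga σ θ := (Ga_mono h0 h1).monotoneOn (mem_Ici.2 le_rfl) (mem_Ici.2 h2) h2
  refine le_trans ?_ hm
  have h4 := int_kd_ge h0 h1
  have h6 : √10001 ^ 2 = (10001 : ℝ) := Real.sq_sqrt (by norm_num)
  have h7 : 100 ≤ √(10001 : ℝ) := by
    rw [Real.le_sqrt' (by norm_num)]
    norm_num
  have e : √(10000 * (0 : ℝ) + 1) = 1 := by norm_num
  unfold Ga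
  rw [e]
  have h10 : √10001 * (1 - √10001) = √10001 - 10001 := by nlinarith
  rw [h10]
  have h11 : -(19208 / 10000) ≤ (97 / 100 - 6 * σ) * ((√10001 - 10001) / 5000) := by
    have h12 : -(9901 / 5000) ≤ (√10001 - 10001) / 5000 := by
      rw [neg_le, ← sub_nonneg]
      have : -((√10001 - 10001) / 5000) = (10001 - √10001) / 5000 := by ring
      rw [this]
      rw [sub_nonneg, div_le_div_iff_of_pos_right (by norm_num)]
      linarith
    have h13 : (97 / 100 - 6 * σ) * -(9901 / 5000) ≤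
        (97 / 100 - 6 * σ) * ((√10001 - 10001) / 5000) :=
      mul_le_mul_of_nonneg_left h12 (by linarith)
    nlinarith
  linarith

end Vale.Agent.P088.R2.H475
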