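import Mathlib

/-!
# P088, zone INF: the derivative of the smooth step

`0 ≤ smoothTransition' ≤ 5`.
-/

open Set Filter
open scoped ContDiff Topology

noncomputable section

namespace Vale.Agent.P088.R2.H475

lemma hasDerivAt_glue {x : ℝ} (hx : 0 < x) :
    HasDerivAt expNegInvGlue (expNegInvGlue x * (x⁻¹) ^ 2) x := by
  have h1 : HasDerivAt (fun x : ℝ => Real.exp (-x⁻¹)) (Real.exp (-x⁻¹) * (-(-(x ^ 2)⁻¹))) x :=
    ((hasDerivAt_inv hx.ne').neg).exp
  have h2 : expNegInvGlue =ᶠ[𝓝 x] fun x : ℝ => Real.exp (-x⁻¹) := by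
    filter_upwards [lt_mem_nhds hx] with t ht
    simp [expNegInvGlue, not_le.2 ht]
  have h3 := h1.congr_of_eventuallyEq h2
  have e : expNegInvGlue x * (x⁻¹) ^ 2 = Real.exp (-x⁻¹) * (-(-(x ^ 2)⁻¹)) := by
    rw [h2.eq_of_nhds, neg_neg, inv_pow]
  rw [e]
  exact h3

lemma hasDerivAt_st {x : ℝ} (h0 : 0 < x) (h1 : x < 1) :
    HasDerivAt Real.smoothTransition
      (expNegInvGlue x * expNegInvGlue (1 - x) * ((x⁻¹) ^ 2 + ((1 - x)⁻¹) ^ 2) /
        (expNegInvGlue x + expNegInvGlue (1 - x)) ^ 2) x := by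
  have ha := hasDerivAt_glue h0
  have hb0 : HasDerivAt (fun x : ℝ => 1 - x) (-1) x := by
    simpa using (hasDerivAt_id x).const_sub 1
  have hb := (hasDerivAt_glue (sub_pos.2 h1)).comp x hb0
  have hp : 0 < expNegInvGlue x := expNegInvGlue.pos_of_pos h0
  have hq : 0 < expNegInvGlue (1 - x) := expNegInvGlue.pos_of_pos (sub_pos.2 h1)
  have h := ha.div (ha.add hb) (by simp only [Function.comp, Pi.add_apply]; positivity)
  have e : (expNegInvGlue x * (x⁻¹) ^ 2 * (expNegInvGlue x + expNegInvGlue (1 - x)) -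
      expNegInvGlue x * (expNegInvGlue x * (x⁻¹) ^ 2 +
        expNegInvGlue (1 - x) * ((1 - x)⁻¹) ^ 2 * -1)) /
        (expNegInvGlue x + expNegInvGlue (1 - x)) ^ 2 =
      expNegInvGlue x * expNegInvGlue (1 - x) * ((x⁻¹) ^ 2 + ((1 - x)⁻¹) ^ 2) /
        (expNegInvGlue x + expNegInvGlue (1 - x)) ^ 2 := by
    congr 1
    ring
  rw [← e]
  exact h

lemma st_bound_aux {x : ℝ} (h0 : 0 < x) (h1 : x ≤ 1 / 2) :
    expNegInvGlue x * expNegInvGlue (1 - x) * ((x⁻¹) ^ 2 + ((1 - x)⁻¹) ^ 2) /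
        (expNegInvGlue x + expNegInvGlue (1 - x)) ^ 2 ≤ 5 := by
  have hx1 : 0 < 1 - x := by linarith
  have ea : expNegInvGlue x = Real.exp (-x⁻¹) := by simp [expNegInvGlue, not_le.2 h0]
  have eb : expNegInvGlue (1 - x) = Real.exp (-(1 - x)⁻¹) := by
    simp [expNegInvGlue, show ¬ (1 ≤ x) by linarith]
  set a := expNegInvGlue x with ha
  set b := expNegInvGlue (1 - x) with hb
  have hp : 0 < a := expNegInvGlue.pos_of_pos h0
  have hq : 0 < b := expNegInvGlue.pos_of_pos hx1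
  have hy : 2 ≤ x⁻¹ := by
    rw [le_inv_comm₀ (by norm_num) h0]; linarith
  have hz : (1 - x)⁻¹ ≤ 2 := by
    rw [inv_le_comm₀ hx1 (by norm_num)]; linarith
  have hz0 : 0 ≤ (1 - x)⁻¹ := (inv_pos.2 hx1).le
  have hz2 : ((1 - x)⁻¹) ^ 2 ≤ 4 := by nlinarith
  rw [div_le_iff₀ (by positivity)]
  rcases le_total x⁻¹ 4 with h4 | h4
  · have h5 : (x⁻¹) ^ 2 ≤ 16 := by nlinarith
    have h6 : a * b * ((x⁻¹) ^ 2 + ((1 - x)⁻¹) ^ 2) ≤ a * b * 20 :=
      mul_le_mul_of_nonneg_left (by linarith) (by positivity)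
    nlinarith [sq_nonneg (a - b)]
  · -- `a ≤ b exp (2 - y)`
    have h5 : a * Real.exp (x⁻¹ - 2) ≤ b := by
      rw [ea, eb, ← Real.exp_add]
      exact Real.exp_le_exp.2 (by linarith)
    have h6 : 1 + (x⁻¹ - 2) + (x⁻¹ - 2) ^ 2 / 2 ≤ Real.exp (x⁻¹ - 2) :=
      Real.quadratic_le_exp_of_nonneg (by linarith)
    have h7 : a * (1 + (x⁻¹ - 2) + (x⁻¹ - 2) ^ 2 / 2) ≤ b :=
      (mul_le_mul_of_nonneg_left h6 hp.le).trans h5
    have h8 : (x⁻¹) ^ 2 + ((1 - x)⁻¹) ^ 2 ≤ 5 * (1 + (x⁻¹ - 2) + (x⁻¹ - 2) ^ 2 / 2) := by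
      nlinarith
    have h9 : a * b * ((x⁻¹) ^ 2 + ((1 - x)⁻¹) ^ 2) ≤
        b * (5 * (a * (1 + (x⁻¹ - 2) + (x⁻¹ - 2) ^ 2 / 2))) := by
      have := mul_le_mul_of_nonneg_left h8 (mul_pos hp hq).le
      linarith [this]
    have h10 : b * (5 * (a * (1 + (x⁻¹ - 2) + (x⁻¹ - 2) ^ 2 / 2))) ≤ b * (5 * b) :=
      mul_le_mul_of_nonneg_left (by linarith) hq.le
    nlinarith [mul_pos hp hq]

/-- **`0 ≤ smoothTransition' ≤ 5`.** -/
theorem deriv_st (x : ℝ) :
    0 ≤ deriv Real.smoothTransition x ∧ deriv Real.smoothTransition x ≤ 5 := by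
  rcases le_or_gt x 0 with h0 | h0
  · have : deriv Real.smoothTransition x = 0 := by
      refine IsLocalMin.deriv_eq_zero (Eventually.of_forall fun y => ?_)
      rw [Real.smoothTransition.zero_of_nonpos h0]
      exact Real.smoothTransition.nonneg y
    rw [this]; norm_num
  rcases le_or_gt 1 x with h1 | h1
  · have : deriv Real.smoothTransition x = 0 := by
      refine IsLocalMax.deriv_eq_zero (Eventually.of_forall fun y => ?_)
      rw [Real.smoothTransition.one_of_one_le h1]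
      exact Real.smoothTransition.le_one y
    rw [this]; norm_num
  have hx1 : 0 < 1 - x := by linarith
  have hp : 0 < expNegInvGlue x := expNegInvGlue.pos_of_pos h0
  have hq : 0 < expNegInvGlue (1 - x) := expNegInvGlue.pos_of_pos hx1
  rw [(hasDerivAt_st h0 h1).deriv]
  refine ⟨by positivity, ?_⟩
  rcases le_total x (1 / 2) with h2 | h2
  · exact st_bound_aux h0 h2
  · have h := st_bound_aux hx1 (by linarith)
    rw [sub_sub_cancel] at h
    rw [mul_comm (expNegInvGlue x), add_comm (expNegInvGlue x), add_comm ((x⁻¹) ^ 2)]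
    exact h

end Vale.Agent.P088.R2.H475
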